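import Vale.Agent.H13.P069.Main

/-!
# P069: a separable reflexive AMUC Banach space with no equivalent AUC norm
-/

namespace Vale.Agent.Results.P069.AmucNotAuc

open Vale.Agent.H13.P069

/-- Q1 is false: there is an infinite-dimensional separable reflexive real Banach space whose
norm is asymptotically midpoint uniformly convex and which has no equivalent asymptotically
uniformly convex norm. -/
theorem result :
    ∃ (X : Type) (_ : NormedAddCommGroup X) (_ : NormedSpace ℝ X),
      CompleteSpace X ∧ ¬ FiniteDimensional ℝ X ∧ TopologicalSpace.SeparableSpace X ∧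
      IsReflexive X ∧ IsAMUC (normSeminorm ℝ X) ∧ AMUCRenormable X ∧ ¬ AUCRenormable X :=
  ⟨StrongDual ℝ Y, inferInstance, inferInstance, inferInstance, not_finiteDimensional, separable,
    isReflexive_dual isReflexive_Y, isAMUC,
    ⟨normSeminorm ℝ _, ⟨1, 1, one_pos, one_pos, fun x => by simp⟩, isAMUC⟩, not_auc⟩

end Vale.Agent.Results.P069.AmucNotAuc
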