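import Vale.Agent.H3.P069.Final

/-!
# P069: a reflexive AMUC space that is not AUC renormable
-/

namespace Vale.Agent.Results.P069.Counterexample

open Vale.Agent.H3.P069

/-- There is a reflexive infinite-dimensional real Banach space which has an equivalent
asymptotically midpoint uniformly convex norm but no equivalent asymptotically uniformly convex
norm. -/
theorem result : ∃ (X : Type) (_ : NormedAddCommGroup X) (_ : NormedSpace ℝ X),
    CompleteSpace X ∧ ¬ FiniteDimensional ℝ X ∧ IsReflexive X ∧
      AMUCRenormable X ∧ ¬ AUCRenormable X :=
  ⟨X, inferInstance, inferInstance, inferInstance, not_finiteDimensional_X, isReflexive_X,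
    ⟨_, isEquivNorm_norm X, isAMUC_X⟩, not_aucRenormable_X⟩

end Vale.Agent.Results.P069.Counterexample
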